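import Vale.Agent.P074.CubeMeasure

open MeasureTheory Set
open scoped ENNReal NNReal

namespace Vale.Agent.P074

/-- The box with prescribed ranges `I0`, `I1` of the first two coordinates and all the other
coordinates within `r` of those of the centre `c`. -/
def gbox (n : ℕ) (c : EuclideanSpace ℝ (Fin (n + 2))) (r : ℝ) (I0 I1 : Set ℝ) :
    Set (EuclideanSpace ℝ (Fin (n + 2))) :=
  {x | x 0 ∈ I0 ∧ x 1 ∈ I1 ∧ ∀ i : Fin n, x i.succ.succ ∈ Icc (c i.succ.succ - r) (c i.succ.succ + r)}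

theorem gbox_eq (n : ℕ) (c : EuclideanSpace ℝ (Fin (n + 2))) (r : ℝ) (I0 I1 : Set ℝ) :
    gbox n c r I0 I1 = boxSet (Fin.cons I0 (Fin.cons I1
      fun i : Fin n => Icc (c i.succ.succ - r) (c i.succ.succ + r)) : Fin (n + 2) → Set ℝ) := by
  ext x
  simp only [gbox, boxSet, mem_ofPred_eq, Fin.forall_fin_succ, Fin.cons_zero, Fin.cons_succ]
  rfl

theorem volume_gbox (n : ℕ) (c : EuclideanSpace ℝ (Fin (n + 2))) (r : ℝ) (I0 I1 : Set ℝ) :
    volume (gbox n c r I0 I1) = volume I0 * volume I1 * ENNReal.ofReal (2 * r) ^ n := by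
  rw [gbox_eq, volume_boxSet, Fin.prod_univ_succ, Fin.prod_univ_succ]
  simp only [Fin.cons_zero, Fin.cons_succ, Real.volume_Icc]
  have : ∀ i : Fin n, c i.succ.succ + r - (c i.succ.succ - r) = 2 * r := fun i => by ring
  simp only [this, Finset.prod_const, Finset.card_univ, Fintype.card_fin]
  ring

theorem measurableSet_gbox (n : ℕ) (c : EuclideanSpace ℝ (Fin (n + 2))) (r : ℝ) (I0 I1 : Set ℝ)
    (h0 : MeasurableSet I0) (h1 : MeasurableSet I1) : MeasurableSet (gbox n c r I0 I1) := by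
  have hc : ∀ i : Fin (n + 2), Measurable fun x : EuclideanSpace ℝ (Fin (n + 2)) => x i :=
    fun i => (EuclideanSpace.proj (𝕜 := ℝ) i).continuous.measurable
  have : gbox n c r I0 I1 = ((fun x : EuclideanSpace ℝ (Fin (n + 2)) => x 0) ⁻¹' I0) ∩
      (((fun x : EuclideanSpace ℝ (Fin (n + 2)) => x 1) ⁻¹' I1) ∩
      ⋂ i : Fin n, (fun x : EuclideanSpace ℝ (Fin (n + 2)) => x i.succ.succ) ⁻¹'
        Icc (c i.succ.succ - r) (c i.succ.succ + r)) := by
    ext x
    simp [gbox]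
  rw [this]
  exact (hc 0 h0).inter ((hc 1 h1).inter (MeasurableSet.iInter fun i => hc _ measurableSet_Icc))

/-- A point all of whose coordinates are within `q` of those of `c` is within `√d q` of `c`. -/
theorem norm_sub_le_of_coord {d : ℕ} (x c : EuclideanSpace ℝ (Fin d)) (q : ℝ) (hq : 0 ≤ q)
    (h : ∀ i, |x i - c i| ≤ q) : ‖x - c‖ ≤ √d * q := by
  rw [EuclideanSpace.norm_eq]
  have h1 : ∑ i, ‖(x - c) i‖ ^ 2 ≤ d * q ^ 2 := by
    calc ∑ i, ‖(x - c) i‖ ^ 2 ≤ ∑ _i : Fin d, q ^ 2 := by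
          refine Finset.sum_le_sum fun i _ => ?_
          rw [Real.norm_eq_abs, PiLp.sub_apply]
          exact pow_le_pow_left₀ (abs_nonneg _) (h i) 2
      _ = d * q ^ 2 := by simp
  calc √(∑ i, ‖(x - c) i‖ ^ 2) ≤ √(d * q ^ 2) := Real.sqrt_le_sqrt h1
    _ = √d * q := by rw [Real.sqrt_mul (by positivity), Real.sqrt_sq hq]

theorem abs_coord_sub_le {d : ℕ} (x c : EuclideanSpace ℝ (Fin d)) (i : Fin d) :
    |x i - c i| ≤ ‖x - c‖ := by
  have h1 : ‖(x - c) i‖ ≤ ‖x - c‖ := PiLp.norm_apply_le (x - c) i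
  rwa [Real.norm_eq_abs, PiLp.sub_apply] at h1

/-- A set with nonempty interior contains a small coordinate cube. -/
theorem exists_small_cube {d : ℕ} (K : Set (EuclideanSpace ℝ (Fin d)))
    (hK : (interior K).Nonempty) :
    ∃ c : EuclideanSpace ℝ (Fin d), ∃ q : ℝ, 0 < q ∧ ∀ x : EuclideanSpace ℝ (Fin d),
      (∀ i, |x i - c i| ≤ q) → x ∈ K := by
  obtain ⟨c, hc⟩ := hK
  rw [mem_interior_iff_mem_nhds, Metric.mem_nhds_iff] at hc
  obtain ⟨ε, hε, hball⟩ := hc
  refine ⟨c, ε / (2 * (√d + 1)), by positivity, fun x hx => hball ?_⟩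
  rw [Metric.mem_ball, dist_eq_norm]
  have h1 := norm_sub_le_of_coord x c _ (by positivity) hx
  have h2 : √d * (ε / (2 * (√d + 1))) < ε := by
    have hs : 0 ≤ √(d : ℝ) := Real.sqrt_nonneg _
    rw [← mul_div_assoc, div_lt_iff₀ (by positivity)]
    nlinarith
  exact lt_of_le_of_lt h1 h2

/-- A bounded set is contained in a large coordinate cube around any centre. -/
theorem exists_big_cube {d : ℕ} (K : Set (EuclideanSpace ℝ (Fin d))) (hK : Bornology.IsBounded K)
    (c : EuclideanSpace ℝ (Fin d)) :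
    ∃ R : ℝ, 0 < R ∧ ∀ x ∈ K, ∀ i, |x i - c i| ≤ R := by
  obtain ⟨R, hR⟩ := hK.subset_closedBall c
  refine ⟨max R 1, by positivity, fun x hx i => ?_⟩
  have h1 := hR hx
  rw [Metric.mem_closedBall, dist_eq_norm] at h1
  exact (abs_coord_sub_le x c i).trans (h1.trans (le_max_left _ _))

end Vale.Agent.P074
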