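import Vale.Agent.P074.General.Mass

open MeasureTheory Set
open scoped ENNReal NNReal

namespace Vale.Agent.P074

variable {n : ℕ}

theorem site_sub_same (ys : EuclideanSpace ℝ (Fin (n + 2))) (lam δ : ℝ) (k : Fin 3) :
    ‖site ys lam 0 k - site ys lam δ k‖ ^ 2 = if k = 1 then (lam * δ) ^ 2 else 0 := by
  fin_cases k
  · simp [site]
  · have : site ys lam 0 1 - site ys lam δ 1 = EuclideanSpace.single 1 (-(lam * δ)) := by
      ext i
      by_cases hi : i = 1
      · subst hi; simp [site]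
      · simp [site, hi]
    simp only [Fin.mk_one, if_true]
    rw [this, PiLp.norm_single, Real.norm_eq_abs, sq_abs]
    ring
  · simp [site]

theorem site_sub_ne (ys : EuclideanSpace ℝ (Fin (n + 2))) (lam s s' : ℝ) (hlam : 0 < lam)
    (j k : Fin 3) (hjk : j ≠ k) : lam ^ 2 ≤ ‖site ys lam s j - site ys lam s' k‖ ^ 2 := by
  have h1 := abs_coord_sub_le (site ys lam s j) (site ys lam s' k) 0
  rw [site_zero_coord, site_zero_coord] at h1
  have h2 : lam ≤ |ys 0 + lam * (![-1, 0, 1] : Fin 3 → ℝ) j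
      - (ys 0 + lam * (![-1, 0, 1] : Fin 3 → ℝ) k)| := by
    have e : ys 0 + lam * (![-1, 0, 1] : Fin 3 → ℝ) j - (ys 0 + lam * (![-1, 0, 1] : Fin 3 → ℝ) k)
        = lam * ((![-1, 0, 1] : Fin 3 → ℝ) j - (![-1, 0, 1] : Fin 3 → ℝ) k) := by ring
    rw [e, abs_mul, abs_of_pos hlam]
    have h3 : 1 ≤ |(![-1, 0, 1] : Fin 3 → ℝ) j - (![-1, 0, 1] : Fin 3 → ℝ) k| := by
      fin_cases j <;> fin_cases k <;> simp at hjk ⊢ <;> norm_num
    nlinarith
  exact pow_le_pow_left₀ hlam.le (h2.trans h1) 2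

theorem norm_site_sub_le (ys : EuclideanSpace ℝ (Fin (n + 2))) (lam s : ℝ) (hlam : 0 ≤ lam)
    (hs : |s| ≤ 1) (k : Fin 3) : ‖site ys lam s k - ys‖ ≤ lam := by
  fin_cases k
  · simp [site, abs_of_nonneg hlam]
  · simp only [site, Fin.mk_one, Matrix.cons_val_one, Matrix.cons_val_zero, add_sub_cancel_left]
    rw [PiLp.norm_single, Real.norm_eq_abs, abs_mul, abs_of_nonneg hlam]
    nlinarith
  · simp [site, abs_of_nonneg hlam]

/-- Upper bound for `W₂` between the slab target and the wedge target. -/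
theorem W2_general_le (ρ : Measure (EuclideanSpace ℝ (Fin (n + 2))))
    (ys c : EuclideanSpace ℝ (Fin (n + 2))) (lam q δ l r : ℝ)
    (hmatch : Measure.map (isl l r) ρ = Measure.map (iw c q δ) ρ) :
    W2 (Measure.map (fun x => site ys lam 0 (isl l r x)) ρ)
      (Measure.map (fun x => site ys lam δ (iw c q δ x)) ρ)
      ≤ (ENNReal.ofReal ((lam * δ) ^ 2) * ρ (iw c q δ ⁻¹' {1})) ^ (1 / 2 : ℝ) := by
  have m0 : Measurable (site ys lam 0) := measurable_of_finite _
  have m1 : Measurable (site ys lam δ) := measurable_of_finite _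
  have e0 : Measure.map (fun x => site ys lam 0 (isl l r x)) ρ
      = Measure.map (site ys lam 0) (Measure.map (iw c q δ) ρ) := by
    rw [← hmatch, Measure.map_map m0 (measurable_isl l r)]
    rfl
  have e1 : Measure.map (fun x => site ys lam δ (iw c q δ x)) ρ
      = Measure.map (site ys lam δ) (Measure.map (iw c q δ) ρ) := by
    rw [Measure.map_map m1 (measurable_iw c q δ)]
    rfl
  rw [e0, e1]
  refine (W2_map_le' _ _ _ m0 m1).trans ?_
  refine ENNReal.rpow_le_rpow ?_ (by norm_num)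
  have hle : ∀ k : Fin 3, ENNReal.ofReal (‖site ys lam 0 k - site ys lam δ k‖ ^ 2)
      ≤ ({1} : Set (Fin 3)).indicator (fun _ => ENNReal.ofReal ((lam * δ) ^ 2)) k := by
    intro k
    rw [site_sub_same]
    by_cases hk : k = 1
    · subst hk; simp
    · simp [hk]
  refine (lintegral_mono hle).trans ?_
  rw [lintegral_indicator_const (measurableSet_singleton _),
    Measure.map_apply (measurable_iw c q δ) (measurableSet_singleton _)]

/-- Upper bound for the mass of the wedge cell. -/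
theorem wedge_mass_le (K : Set (EuclideanSpace ℝ (Fin (n + 2)))) (hKm : MeasurableSet K)
    (c : EuclideanSpace ℝ (Fin (n + 2))) (R : ℝ) (hbig : ∀ x ∈ K, ∀ i, |x i - c i| ≤ R)
    (q δ : ℝ) (hδ : 0 ≤ δ) :
    unif K (iw c q δ ⁻¹' {1})
      ≤ (volume K)⁻¹ * (ENNReal.ofReal (2 * (δ * (R + q))) * ENNReal.ofReal (2 * R) ^ (n + 1)) := by
  have hsub : (iw c q δ ⁻¹' {1}) ∩ K
      ⊆ {x | x 0 ∈ Icc (c 0 - δ * (R + q)) (c 0 + δ * (R + q))} := by
    rintro x ⟨hx, hxK⟩
    have hx' : iw c q δ x = 1 := hx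
    rw [iw_eq_one_iff] at hx'
    have h1 := abs_le.mp (hbig x hxK 1)
    have h2 : δ * (x 1 - c 1 + q) ≤ δ * (R + q) :=
      mul_le_mul_of_nonneg_left (by linarith [h1.2]) hδ
    have h3 := abs_le.mp (hx'.trans h2)
    exact ⟨by linarith [h3.1], by linarith [h3.2]⟩
  refine (unif_le_of_inter_subset' hKm hsub).trans ((unif_slab_le K hKm c R hbig _).trans ?_)
  rw [Real.volume_Icc]
  have : c 0 + δ * (R + q) - (c 0 - δ * (R + q)) = 2 * (δ * (R + q)) := by ring
  rw [this]

end Vale.Agent.P074
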