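import Vale.Agent.P074.Certificate

open MeasureTheory Set
open scoped ENNReal NNReal

namespace Vale.Agent.P074

variable {d : ℕ}

/-- `W₂` between two push-forwards of the same measure (on any measurable space) is at most the
`L²` distance of the two maps. -/
theorem W2_map_le' {Ω : Type*} [MeasurableSpace Ω] (m : Measure Ω)
    (f g : Ω → EuclideanSpace ℝ (Fin d)) (hf : Measurable f) (hg : Measurable g) :
    W2 (Measure.map f m) (Measure.map g m)
      ≤ (∫⁻ k, ENNReal.ofReal (‖f k - g k‖ ^ 2) ∂m) ^ (1 / 2 : ℝ) := by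
  unfold W2
  refine ENNReal.rpow_le_rpow ?_ (by norm_num)
  have hfg : Measurable fun x => (f x, g x) := hf.prodMk hg
  have h1 : Measure.map Prod.fst (Measure.map (fun x => (f x, g x)) m) = Measure.map f m := by
    rw [Measure.map_map measurable_fst hfg]
    rfl
  have h2 : Measure.map Prod.snd (Measure.map (fun x => (f x, g x)) m) = Measure.map g m := by
    rw [Measure.map_map measurable_snd hfg]
    rfl
  refine (iInf_le _ ⟨Measure.map (fun x => (f x, g x)) m, h1, h2⟩).trans ?_
  have hm : Measurable fun p : EuclideanSpace ℝ (Fin d) × EuclideanSpace ℝ (Fin d) =>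
      ENNReal.ofReal (‖p.1 - p.2‖ ^ 2) :=
    ((measurable_fst.sub measurable_snd).norm.pow_const 2).ennreal_ofReal
  exact (lintegral_map hm hfg).le

/-- The multiplier attached to finitely many sites `a j` with weights `c j`. -/
noncomputable def lamOf {ι : Type*} [Fintype ι] (a : ι → EuclideanSpace ℝ (Fin d)) (c : ι → ℝ) :
    EuclideanSpace ℝ (Fin d) → ℝ := by
  classical
  exact fun y => ∑ j, if y = a j then (2 * c j - ‖a j‖ ^ 2) else 0

theorem lamOf_apply {ι : Type*} [Fintype ι] (a : ι → EuclideanSpace ℝ (Fin d)) (c : ι → ℝ)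
    (ha : Function.Injective a) (k : ι) : lamOf a c (a k) = 2 * c k - ‖a k‖ ^ 2 := by
  classical
  unfold lamOf
  rw [Finset.sum_eq_single k]
  · simp
  · intro j _ hj
    rw [if_neg]
    intro h
    exact hj (ha h).symm
  · intro h
    exact absurd (Finset.mem_univ k) h

theorem measurable_lamOf {ι : Type*} [Fintype ι] (a : ι → EuclideanSpace ℝ (Fin d)) (c : ι → ℝ) :
    Measurable (lamOf a c) := by
  classical
  unfold lamOf
  refine Finset.measurable_sum _ fun j _ => ?_
  exact Measurable.ite (measurableSet_singleton (a j)) measurable_const measurable_const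

theorem abs_lamOf_le {ι : Type*} [Fintype ι] (a : ι → EuclideanSpace ℝ (Fin d)) (c : ι → ℝ)
    (y : EuclideanSpace ℝ (Fin d)) : |lamOf a c y| ≤ ∑ j, |2 * c j - ‖a j‖ ^ 2| := by
  classical
  unfold lamOf
  refine (Finset.abs_sum_le_sum_abs _ _).trans (Finset.sum_le_sum fun j _ => ?_)
  split_ifs
  · exact le_rfl
  · simp

/-- The pointwise certificate inequality for a Laguerre (power) cell assignment. -/
theorem certificate_of_index {ι : Type*} [Fintype ι] (a : ι → EuclideanSpace ℝ (Fin d))
    (c : ι → ℝ) (ha : Function.Injective a) (x : EuclideanSpace ℝ (Fin d)) (k j : ι) :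
    (‖x - a k‖ ^ 2 + lamOf a c (a k) ≤ ‖x - a j‖ ^ 2 + lamOf a c (a j)) ↔
      inner ℝ x (a j) - c j ≤ inner ℝ x (a k) - c k := by
  rw [lamOf_apply a c ha, lamOf_apply a c ha, norm_sub_sq_real, norm_sub_sq_real]
  constructor <;> intro h <;> linarith

theorem certificate_of_index_lt {ι : Type*} [Fintype ι] (a : ι → EuclideanSpace ℝ (Fin d))
    (c : ι → ℝ) (ha : Function.Injective a) (x : EuclideanSpace ℝ (Fin d)) (k j : ι) :
    (‖x - a k‖ ^ 2 + lamOf a c (a k) < ‖x - a j‖ ^ 2 + lamOf a c (a j)) ↔
      inner ℝ x (a j) - c j < inner ℝ x (a k) - c k := by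
  rw [lamOf_apply a c ha, lamOf_apply a c ha, norm_sub_sq_real, norm_sub_sq_real]
  constructor <;> intro h <;> linarith

/-- A finitely valued map which sends each `x` to a site maximizing `⟨x, a j⟩ - c j` is an optimal
transport map onto its image measure. -/
theorem isOTMap_of_index {ι : Type*} [Fintype ι] [MeasurableSpace ι] [MeasurableSingletonClass ι]
    (ρ : Measure (EuclideanSpace ℝ (Fin d))) [IsFiniteMeasure ρ]
    (a : ι → EuclideanSpace ℝ (Fin d)) (c : ι → ℝ) (ha : Function.Injective a)
    (i : EuclideanSpace ℝ (Fin d) → ι) (hi : Measurable i)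
    (h : ∀ x j, inner ℝ x (a j) - c j ≤ inner ℝ x (a (i x)) - c (i x)) :
    IsOTMap ρ (Measure.map (fun x => a (i x)) ρ) (fun x => a (i x)) := by
  have hmeas : Measurable fun x => a (i x) := (measurable_of_finite a).comp hi
  refine isOTMap_of_certificate ρ _ hmeas (Set.range a) (Set.finite_range a).measurableSet
    (fun x => ⟨i x, rfl⟩) (lamOf a c) (measurable_lamOf a c) _ (abs_lamOf_le a c) ?_
  rintro x _ ⟨j, rfl⟩
  exact (certificate_of_index a c ha x (i x) j).mpr (h x j)

end Vale.Agent.P074
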