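import Vale.Agent.P074.General.Boxes

open MeasureTheory Set
open scoped ENNReal NNReal

namespace Vale.Agent.P074

theorem measurable_coord {d : ℕ} (i : Fin d) :
    @Measurable (EuclideanSpace ℝ (Fin d)) ℝ _ _ (fun x : EuclideanSpace ℝ (Fin d) => x i) :=
  (EuclideanSpace.proj (𝕜 := ℝ) i).continuous.measurable

/-- Intermediate value theorem for the mass of the half spaces `{x₀ < s}`. -/
theorem exists_level {n : ℕ} (ρ : Measure (EuclideanSpace ℝ (Fin (n + 2)))) [IsFiniteMeasure ρ]
    (Lc : ℝ) (hLc : 0 ≤ Lc)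
    (hslab : ∀ s s' : ℝ, s ≤ s' →
      ρ {x | s ≤ x 0 ∧ x 0 < s'} ≤ ENNReal.ofReal (Lc * (s' - s)))
    (a b : ℝ) (hab : a ≤ b) (m : ℝ≥0∞) (h1 : ρ {x | x 0 < a} ≤ m) (h2 : m ≤ ρ {x | x 0 < b}) :
    ∃ s ∈ Icc a b, ρ {x | x 0 < s} = m := by
  set g : ℝ → ℝ := fun s => (ρ {x | x 0 < s}).toReal with hg
  have hmeas : ∀ s : ℝ, MeasurableSet {x : EuclideanSpace ℝ (Fin (n + 2)) | x 0 < s} := fun s =>
    measurableSet_lt (measurable_coord 0) measurable_const
  have hmeas2 : ∀ s s' : ℝ,
      MeasurableSet {x : EuclideanSpace ℝ (Fin (n + 2)) | s ≤ x 0 ∧ x 0 < s'} := fun s s' =>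
    (measurableSet_le measurable_const (measurable_coord 0)).inter (hmeas s')
  have hstep : ∀ s s' : ℝ, s ≤ s' → g s' ≤ g s + Lc * (s' - s) ∧ g s ≤ g s' := by
    intro s s' hss
    have hun : {x : EuclideanSpace ℝ (Fin (n + 2)) | x 0 < s'}
        = {x | x 0 < s} ∪ {x | s ≤ x 0 ∧ x 0 < s'} := by
      ext x
      simp only [mem_ofPred_eq, mem_union]
      constructor
      · intro h
        rcases lt_or_ge (x 0) s with h' | h'
        · exact Or.inl h'
        · exact Or.inr ⟨h', h⟩
      · rintro (h | h)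
        · exact lt_of_lt_of_le h hss
        · exact h.2
    have hdisj : Disjoint {x : EuclideanSpace ℝ (Fin (n + 2)) | x 0 < s}
        {x | s ≤ x 0 ∧ x 0 < s'} := by
      rw [Set.disjoint_left]
      intro x hx hx'
      exact absurd hx (not_lt.mpr hx'.1)
    have hsum : ρ {x | x 0 < s'} = ρ {x | x 0 < s} + ρ {x | s ≤ x 0 ∧ x 0 < s'} := by
      rw [hun, measure_union hdisj (hmeas2 s s')]
    constructor
    · simp only [hg]
      rw [hsum, ENNReal.toReal_add (measure_ne_top _ _) (measure_ne_top _ _)]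
      have := ENNReal.toReal_mono ENNReal.ofReal_ne_top (hslab s s' hss)
      rw [ENNReal.toReal_ofReal (mul_nonneg hLc (by linarith))] at this
      linarith
    · simp only [hg]
      exact ENNReal.toReal_mono (measure_ne_top _ _) (measure_mono fun x hx => lt_of_lt_of_le hx hss)
  have hlip : LipschitzWith Lc.toNNReal g := by
    refine LipschitzWith.of_le_add_mul _ fun x y => ?_
    rw [Real.coe_toNNReal _ hLc, Real.dist_eq]
    rcases le_total x y with hxy | hxy
    · have := (hstep x y hxy).2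
      have h3 : 0 ≤ Lc * |x - y| := mul_nonneg hLc (abs_nonneg _)
      linarith
    · have := (hstep y x hxy).1
      rw [abs_of_nonneg (by linarith)]
      exact this
  have hm_top : m ≠ ∞ := ne_top_of_le_ne_top (measure_ne_top _ _) h2
  have hmem : m.toReal ∈ Icc (g a) (g b) :=
    ⟨ENNReal.toReal_mono hm_top h1, ENNReal.toReal_mono (measure_ne_top _ _) h2⟩
  obtain ⟨s, hs, hgs⟩ := intermediate_value_Icc hab hlip.continuous.continuousOn hmem
  exact ⟨s, hs, (ENNReal.toReal_eq_toReal_iff' (measure_ne_top _ _) hm_top).mp hgs⟩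

end Vale.Agent.P074
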