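import Vale.Agent.P074.General.Estimates

open MeasureTheory Set
open scoped ENNReal NNReal

namespace Vale.Agent.P074

variable {n : ℕ}

/-- Lower bound for the squared `L²` distance between the slab map and the wedge map. -/
theorem L2_general_ge (K : Set (EuclideanSpace ℝ (Fin (n + 2)))) (hKm : MeasurableSet K)
    (c : EuclideanSpace ℝ (Fin (n + 2))) (q : ℝ) (hq : 0 < q)
    (hsmall : ∀ x : EuclideanSpace ℝ (Fin (n + 2)), (∀ i, |x i - c i| ≤ q) → x ∈ K)
    (ys : EuclideanSpace ℝ (Fin (n + 2))) (lam : ℝ) (hlam : 0 < lam) (δ : ℝ) (h0 : 0 < δ)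
    (h1 : δ ≤ 1 / 2) (l r : ℝ) :
    ENNReal.ofReal (lam ^ 2) * ((volume K)⁻¹ *
        (ENNReal.ofReal (δ * q) * ENNReal.ofReal (q / 2) * ENNReal.ofReal (2 * q) ^ n))
      ≤ ∫⁻ x, ENNReal.ofReal (‖site ys lam 0 (isl l r x) - site ys lam δ (iw c q δ x)‖ ^ 2)
          ∂(unif K) := by
  set ρ := unif K with hρ
  set f : EuclideanSpace ℝ (Fin (n + 2)) → ℝ≥0∞ := fun x =>
    ENNReal.ofReal (‖site ys lam 0 (isl l r x) - site ys lam δ (iw c q δ x)‖ ^ 2) with hf
  have hfm : Measurable f := by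
    have m0 : Measurable fun x : EuclideanSpace ℝ (Fin (n + 2)) => site ys lam 0 (isl l r x) :=
      (measurable_of_finite (site ys lam 0)).comp (measurable_isl l r)
    have m1 : Measurable fun x : EuclideanSpace ℝ (Fin (n + 2)) => site ys lam δ (iw c q δ x) :=
      (measurable_of_finite (site ys lam δ)).comp (measurable_iw c q δ)
    exact ((m0.sub m1).norm.pow_const 2).ennreal_ofReal
  have hmarkov := mul_meas_ge_le_lintegral (μ := ρ) hfm (ENNReal.ofReal (lam ^ 2))
  refine le_trans (mul_le_mul_right ?_ _) hmarkov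
  set J : Set ℝ := Ioc (c 0 + δ * q / 2) (c 0 + 3 * δ * q / 2) with hJ
  set P : Set ℝ := Ico l r with hP
  set A := gbox n c q (J ∩ P) (Icc (c 1 - q) (c 1 - q / 2)) with hA
  set B := gbox n c q (J \ P) (Icc (c 1 + q / 2) (c 1 + q)) with hB
  have hδq : 0 < δ * q := mul_pos h0 hq
  have hJsub : J ⊆ Icc (c 0 - q) (c 0 + q) := by
    intro t ht
    have : δ * q ≤ q / 2 := by nlinarith
    exact ⟨by linarith [ht.1], by linarith [ht.2]⟩
  have hne : ∀ x, isl l r x ≠ iw c q δ x → ENNReal.ofReal (lam ^ 2) ≤ f x := fun x hx =>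
    ENNReal.ofReal_le_ofReal (site_sub_ne ys lam 0 δ hlam _ _ hx)
  have hAsub : A ⊆ {x | ENNReal.ofReal (lam ^ 2) ≤ f x} := by
    rintro x ⟨hx0, hx1, -⟩
    refine hne x ?_
    have e1 : isl l r x = 1 := (isl_eq_one_iff x l r).mpr hx0.2
    rw [e1]
    intro h
    have h2 := (iw_eq_one_iff c x q δ).mp h.symm
    have h3 : δ * (x 1 - c 1 + q) ≤ δ * (q / 2) :=
      mul_le_mul_of_nonneg_left (by linarith [hx1.2]) h0.le
    have h4 := (le_abs_self (x 0 - c 0)).trans (h2.trans h3)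
    linarith [hx0.1.1]
  have hBsub : B ⊆ {x | ENNReal.ofReal (lam ^ 2) ≤ f x} := by
    rintro x ⟨hx0, hx1, -⟩
    refine hne x ?_
    have e1 : iw c q δ x = 1 := by
      rw [iw_eq_one_iff, abs_of_nonneg (by linarith [hx0.1.1])]
      have h3 : δ * (3 * q / 2) ≤ δ * (x 1 - c 1 + q) :=
        mul_le_mul_of_nonneg_left (by linarith [hx1.1]) h0.le
      linarith [hx0.1.2]
    rw [e1]
    intro h
    exact hx0.2 ((isl_eq_one_iff x l r).mp h)
  have hBm : MeasurableSet B :=
    measurableSet_gbox n c q _ _ (measurableSet_Ioc.diff measurableSet_Ico) measurableSet_Icc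
  have hdisj : Disjoint A B := by
    rw [Set.disjoint_left]
    rintro x ⟨-, hx1, -⟩ ⟨-, hx1', -⟩
    linarith [hx1.2, hx1'.1]
  have hAB : ρ A + ρ B ≤ ρ {x | ENNReal.ofReal (lam ^ 2) ≤ f x} := by
    rw [← measure_union hdisj hBm]
    exact measure_mono (union_subset hAsub hBsub)
  refine le_trans (le_of_eq ?_) hAB
  rw [hρ, hA, hB, unif_gbox K hKm c q hsmall _ _ (inter_subset_left.trans hJsub)
      (Icc_subset_Icc le_rfl (by linarith)),
    unif_gbox K hKm c q hsmall _ _ (sdiff_subset.trans hJsub) (Icc_subset_Icc (by linarith) le_rfl),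
    Real.volume_Icc, Real.volume_Icc]
  have e1 : c 1 - q / 2 - (c 1 - q) = q / 2 := by ring
  have e2 : c 1 + q - (c 1 + q / 2) = q / 2 := by ring
  have e3 : volume (J ∩ P) + volume (J \ P) = ENNReal.ofReal (δ * q) := by
    rw [measure_inter_add_sdiff J measurableSet_Ico, hJ, Real.volume_Ioc]
    congr 1
    ring
  rw [e1, e2, ← e3]
  ring

end Vale.Agent.P074
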