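import Mathlib

open scoped ENNReal NNReal

namespace Vale.Agent.P074

theorem exists_delta_real_gen (a b : ℝ) (ha : 0 < a) (hb : 0 < b) (α : ℝ) (hα : 1 / 3 < α) (C : ℝ)
    (hC : 0 ≤ C) :
    ∃ δ : ℝ, 0 < δ ∧ δ ≤ 1 / 2 ∧ C * ((b * δ ^ 3) ^ (1 / 2 : ℝ)) ^ α < (a * δ) ^ (1 / 2 : ℝ) := by
  set β : ℝ := (3 * α - 1) / 2 with hβ
  have hβpos : 0 < β := by rw [hβ]; linarith
  have hb' : 0 < b ^ (α / 2) := Real.rpow_pos_of_pos hb _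
  have ha' : 0 < a ^ (1 / 2 : ℝ) := Real.rpow_pos_of_pos ha _
  set M : ℝ := C * b ^ (α / 2) / a ^ (1 / 2 : ℝ) + 1 with hM
  have hMpos : 0 < M := by rw [hM]; positivity
  set δ : ℝ := min (1 / 2) ((1 / M) ^ (1 / β)) with hδ
  have hδpos : 0 < δ := lt_min (by norm_num) (Real.rpow_pos_of_pos (by positivity) _)
  have hδβ : δ ^ β ≤ 1 / M := by
    calc δ ^ β ≤ ((1 / M) ^ (1 / β)) ^ β :=
          Real.rpow_le_rpow hδpos.le (min_le_right _ _) hβpos.le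
      _ = 1 / M := by
          rw [← Real.rpow_mul (by positivity), one_div_mul_cancel hβpos.ne', Real.rpow_one]
  refine ⟨δ, hδpos, min_le_left _ _, ?_⟩
  have e1 : ((b * δ ^ 3) ^ (1 / 2 : ℝ)) ^ α = b ^ (α / 2) * (δ ^ (1 / 2 : ℝ) * δ ^ β) := by
    rw [← Real.rpow_mul (by positivity), Real.mul_rpow hb.le (by positivity),
      ← Real.rpow_natCast δ 3, ← Real.rpow_mul hδpos.le, ← Real.rpow_add hδpos]
    congr 2
    · ring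
    · rw [hβ]; push_cast; ring
  have e2 : (a * δ) ^ (1 / 2 : ℝ) = a ^ (1 / 2 : ℝ) * δ ^ (1 / 2 : ℝ) :=
    Real.mul_rpow ha.le hδpos.le
  rw [e1, e2]
  have hs : 0 < δ ^ (1 / 2 : ℝ) := Real.rpow_pos_of_pos hδpos _
  have hkey : C * b ^ (α / 2) * δ ^ β < a ^ (1 / 2 : ℝ) := by
    have h1 : C * b ^ (α / 2) * δ ^ β ≤ C * b ^ (α / 2) * (1 / M) := by gcongr
    have h2 : C * b ^ (α / 2) * (1 / M) < a ^ (1 / 2 : ℝ) := by
      rw [mul_one_div, div_lt_iff₀ hMpos, hM, mul_add, mul_one, mul_div_cancel₀ _ ha'.ne']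
      linarith
    exact lt_of_le_of_lt h1 h2
  calc C * (b ^ (α / 2) * (δ ^ (1 / 2 : ℝ) * δ ^ β))
      = (C * b ^ (α / 2) * δ ^ β) * δ ^ (1 / 2 : ℝ) := by ring
    _ < a ^ (1 / 2 : ℝ) * δ ^ (1 / 2 : ℝ) := by gcongr

theorem exists_delta_gen (a b : ℝ) (ha : 0 < a) (hb : 0 < b) (α : ℝ) (hα : 1 / 3 < α) (C : ℝ≥0) :
    ∃ δ : ℝ, 0 < δ ∧ δ ≤ 1 / 2 ∧
      (C : ℝ≥0∞) * (ENNReal.ofReal (b * δ ^ 3) ^ (1 / 2 : ℝ)) ^ α
        < ENNReal.ofReal (a * δ) ^ (1 / 2 : ℝ) := by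
  obtain ⟨δ, h0, h1, h⟩ := exists_delta_real_gen a b ha hb α hα C C.coe_nonneg
  refine ⟨δ, h0, h1, ?_⟩
  have p1 : 0 < b * δ ^ 3 := by positivity
  have p2 : 0 < (b * δ ^ 3) ^ (1 / 2 : ℝ) := Real.rpow_pos_of_pos p1 _
  rw [ENNReal.ofReal_rpow_of_pos p1, ENNReal.ofReal_rpow_of_pos p2,
    ENNReal.ofReal_rpow_of_pos (by positivity), ← ENNReal.ofReal_coe_nnreal,
    ← ENNReal.ofReal_mul C.coe_nonneg]
  exact (ENNReal.ofReal_lt_ofReal_iff (Real.rpow_pos_of_pos (by positivity) _)).mpr h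

end Vale.Agent.P074
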