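import Vale.Agent.P074.General.Lower
import Vale.Agent.P074.General.Numeric

open MeasureTheory Set
open scoped ENNReal NNReal

namespace Vale.Agent.P074

variable {n : ℕ}

/-- The key quantitative statement for a general source body: explicit slab and wedge
configurations with matched masses, and the two estimates. -/
theorem general_estimates (K : Set (EuclideanSpace ℝ (Fin (n + 2)))) (hK : IsCompact K)
    (hint : (interior K).Nonempty) (ys : EuclideanSpace ℝ (Fin (n + 2))) (lam : ℝ)
    (hlam : 0 < lam) :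
    ∃ (c : EuclideanSpace ℝ (Fin (n + 2))) (q a b : ℝ), 0 < a ∧ 0 < b ∧
      ∀ δ : ℝ, 0 < δ → δ ≤ 1 / 2 → ∃ l r : ℝ, l ≤ r ∧
        W2 (Measure.map (fun x => site ys lam 0 (isl l r x)) (unif K))
          (Measure.map (fun x => site ys lam δ (iw c q δ x)) (unif K))
            ≤ ENNReal.ofReal (b * δ ^ 3) ^ (1 / 2 : ℝ) ∧
        ENNReal.ofReal (a * δ) ^ (1 / 2 : ℝ)
          ≤ L2dist (unif K) (fun x => site ys lam 0 (isl l r x))
              (fun x => site ys lam δ (iw c q δ x)) := by
  have hKm : MeasurableSet K := hK.measurableSet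
  have hV0 : volume K ≠ 0 :=
    ((isOpen_interior.measure_pos volume hint).trans_le (measure_mono interior_subset)).ne'
  have hVt : volume K ≠ ∞ := hK.measure_lt_top.ne
  obtain ⟨c, q, hq, hsmall⟩ := exists_small_cube K hint
  obtain ⟨R, hR, hbig⟩ := exists_big_cube K hK.isBounded c
  set Vi : ℝ := ((volume K)⁻¹).toReal with hVi
  have hVifin : (volume K)⁻¹ ≠ ∞ := ENNReal.inv_ne_top.mpr hV0
  have hVipos : 0 < Vi := ENNReal.toReal_pos (ENNReal.inv_ne_zero.mpr hVt) hVifin
  have hVe : (volume K)⁻¹ = ENNReal.ofReal Vi := (ENNReal.ofReal_toReal hVifin).symm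
  refine ⟨c, q, lam ^ 2 * (Vi * (q * (q / 2) * (2 * q) ^ n)),
    lam ^ 2 * (Vi * (2 * (R + q) * (2 * R) ^ (n + 1))), by positivity, by positivity, ?_⟩
  intro δ h0 h1
  obtain ⟨l, r, hl, hr, hmatch⟩ := exists_matching K hKm hV0 hVt c R hR hbig q δ
  refine ⟨l, r, hl.trans hr, ?_, ?_⟩
  · refine (W2_general_le (unif K) ys c lam q δ l r hmatch).trans ?_
    refine ENNReal.rpow_le_rpow ?_ (by norm_num)
    refine (mul_le_mul_right (wedge_mass_le K hKm c R hbig q δ h0.le) _).trans ?_
    rw [hVe, ← ENNReal.ofReal_pow (by positivity), ← ENNReal.ofReal_mul (by positivity),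
      ← ENNReal.ofReal_mul (by positivity), ← ENNReal.ofReal_mul (by positivity)]
    refine ENNReal.ofReal_le_ofReal (le_of_eq ?_)
    ring
  · unfold L2dist
    refine ENNReal.rpow_le_rpow ?_ (by norm_num)
    refine le_trans ?_ (L2_general_ge K hKm c q hq hsmall ys lam hlam δ h0 h1 l r)
    rw [hVe, ← ENNReal.ofReal_pow (by positivity), ← ENNReal.ofReal_mul (by positivity),
      ← ENNReal.ofReal_mul (by positivity), ← ENNReal.ofReal_mul (by positivity),
      ← ENNReal.ofReal_mul (by positivity)]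
    refine ENNReal.ofReal_le_ofReal (le_of_eq ?_)
    ring

theorem slab_isOTMap (ρ : Measure (EuclideanSpace ℝ (Fin (n + 2)))) [IsFiniteMeasure ρ]
    (ys : EuclideanSpace ℝ (Fin (n + 2))) (lam : ℝ) (hlam : 0 < lam) (l r : ℝ) (hlr : l ≤ r) :
    IsOTMap ρ (Measure.map (fun x => site ys lam 0 (isl l r x)) ρ)
      (fun x => site ys lam 0 (isl l r x)) :=
  isOTMap_of_index ρ (site ys lam 0) (cs l r lam) (site_injective ys lam 0 hlam) (isl l r)
    (measurable_isl l r) (fun x j => slab_opt ys l r lam hlam hlr x j)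

theorem wedge_isOTMap (ρ : Measure (EuclideanSpace ℝ (Fin (n + 2)))) [IsFiniteMeasure ρ]
    (ys c : EuclideanSpace ℝ (Fin (n + 2))) (lam : ℝ) (hlam : 0 < lam) (q δ : ℝ) :
    IsOTMap ρ (Measure.map (fun x => site ys lam δ (iw c q δ x)) ρ)
      (fun x => site ys lam δ (iw c q δ x)) :=
  isOTMap_of_index ρ (site ys lam δ) (cw c q δ lam) (site_injective ys lam δ hlam) (iw c q δ)
    (measurable_iw c q δ) (fun x j => wedge_opt ys c q δ lam hlam x j)

theorem map_site_compl_eq_zero (ρ : Measure (EuclideanSpace ℝ (Fin (n + 2))))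
    (ys : EuclideanSpace ℝ (Fin (n + 2))) (lam s : ℝ) (hlam : 0 ≤ lam) (hs : |s| ≤ 1)
    (i : EuclideanSpace ℝ (Fin (n + 2)) → Fin 3) (hi : Measurable i)
    (Y : Set (EuclideanSpace ℝ (Fin (n + 2)))) (hY : MeasurableSet Y)
    (hball : Metric.closedBall ys lam ⊆ Y) :
    (Measure.map (fun x => site ys lam s (i x)) ρ) Yᶜ = 0 := by
  have hm : Measurable fun x => site ys lam s (i x) := (measurable_of_finite (site ys lam s)).comp hi
  rw [Measure.map_apply hm hY.compl]
  have : (fun x => site ys lam s (i x)) ⁻¹' Yᶜ = ∅ := by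
    ext x
    simp only [mem_preimage, mem_compl_iff, mem_empty_iff_false, iff_false, not_not]
    refine hball ?_
    rw [Metric.mem_closedBall, dist_eq_norm]
    exact norm_site_sub_le ys lam s hlam hs _
  rw [this, measure_empty]

/-- For every compact source body `K` with nonempty interior, every target region `Y` with nonempty
interior, every `α > 1/3` and every constant `C`, the Hölder-`α` stability estimate fails. -/
theorem general_bad_pair (K : Set (EuclideanSpace ℝ (Fin (n + 2)))) (hK : IsCompact K)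
    (hint : (interior K).Nonempty) (Y : Set (EuclideanSpace ℝ (Fin (n + 2))))
    (hYm : MeasurableSet Y) (hYint : (interior Y).Nonempty) (α : ℝ) (hα : 1 / 3 < α) (C : ℝ≥0) :
    ∃ μ ν : Measure (EuclideanSpace ℝ (Fin (n + 2))),
      IsProbabilityMeasure μ ∧ IsProbabilityMeasure ν ∧ μ Yᶜ = 0 ∧ ν Yᶜ = 0 ∧
      ∃ T S : EuclideanSpace ℝ (Fin (n + 2)) → EuclideanSpace ℝ (Fin (n + 2)),
        IsOTMap (unif K) μ T ∧ IsOTMap (unif K) ν S ∧
        (C : ℝ≥0∞) * W2 μ ν ^ α < L2dist (unif K) T S := by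
  have hKm : MeasurableSet K := hK.measurableSet
  have hV0 : volume K ≠ 0 :=
    ((isOpen_interior.measure_pos volume hint).trans_le (measure_mono interior_subset)).ne'
  have hVt : volume K ≠ ∞ := hK.measure_lt_top.ne
  have : IsProbabilityMeasure (unif K) := isProbabilityMeasure_unif hKm hV0 hVt
  obtain ⟨ys, hys⟩ := hYint
  rw [mem_interior_iff_mem_nhds, Metric.mem_nhds_iff] at hys
  obtain ⟨ε, hε, hball⟩ := hys
  set lam : ℝ := ε / 2 with hlam'
  have hlam : 0 < lam := by positivity
  have hball' : Metric.closedBall ys lam ⊆ Y :=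
    (Metric.closedBall_subset_ball (by rw [hlam']; linarith)).trans hball
  obtain ⟨c, q, a, b, ha, hb, hest⟩ := general_estimates K hK hint ys lam hlam
  obtain ⟨δ, h0, h1, hδ⟩ := exists_delta_gen a b ha hb α hα C
  obtain ⟨l, r, hlr, hW, hL⟩ := hest δ h0 h1
  have hm0 : Measurable fun x : EuclideanSpace ℝ (Fin (n + 2)) => site ys lam 0 (isl l r x) :=
    (measurable_of_finite (site ys lam 0)).comp (measurable_isl l r)
  have hm1 : Measurable fun x : EuclideanSpace ℝ (Fin (n + 2)) => site ys lam δ (iw c q δ x) :=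
    (measurable_of_finite (site ys lam δ)).comp (measurable_iw c q δ)
  refine ⟨_, _, Measure.isProbabilityMeasure_map hm0.aemeasurable,
    Measure.isProbabilityMeasure_map hm1.aemeasurable,
    map_site_compl_eq_zero _ ys lam 0 hlam.le (by simp) _ (measurable_isl l r) Y hYm hball',
    map_site_compl_eq_zero _ ys lam δ hlam.le (by rw [abs_of_pos h0]; linarith) _
      (measurable_iw c q δ) Y hYm hball',
    _, _, slab_isOTMap _ ys lam hlam l r hlr, wedge_isOTMap _ ys c lam hlam q δ, ?_⟩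
  have hα0 : 0 ≤ α := by linarith
  calc (C : ℝ≥0∞) * W2 _ _ ^ α
      ≤ (C : ℝ≥0∞) * (ENNReal.ofReal (b * δ ^ 3) ^ (1 / 2 : ℝ)) ^ α :=
        mul_le_mul_right (ENNReal.rpow_le_rpow hW hα0) _
    _ < ENNReal.ofReal (a * δ) ^ (1 / 2 : ℝ) := hδ
    _ ≤ _ := hL

end Vale.Agent.P074
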