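import Vale.Agent.P074.General.Wedge

open MeasureTheory Set
open scoped ENNReal NNReal

namespace Vale.Agent.P074

variable {n : ℕ}

/-- Upper bound for the mass of a slab `{x₀ ∈ I0}`. -/
theorem unif_slab_le (K : Set (EuclideanSpace ℝ (Fin (n + 2)))) (hKm : MeasurableSet K)
    (c : EuclideanSpace ℝ (Fin (n + 2))) (R : ℝ) (hbig : ∀ x ∈ K, ∀ i, |x i - c i| ≤ R)
    (I0 : Set ℝ) :
    unif K {x | x 0 ∈ I0} ≤ (volume K)⁻¹ * (volume I0 * ENNReal.ofReal (2 * R) ^ (n + 1)) := by
  rw [unif_apply hKm]
  refine mul_le_mul_right ?_ _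
  have hsub : {x : EuclideanSpace ℝ (Fin (n + 2)) | x 0 ∈ I0} ∩ K
      ⊆ gbox n c R I0 (Icc (c 1 - R) (c 1 + R)) := by
    rintro x ⟨hx0, hxK⟩
    have hb := hbig x hxK
    refine ⟨hx0, ?_, fun i => ?_⟩
    · have := abs_le.mp (hb 1)
      exact ⟨by linarith [this.1], by linarith [this.2]⟩
    · have := abs_le.mp (hb i.succ.succ)
      exact ⟨by linarith [this.1], by linarith [this.2]⟩
  refine (measure_mono hsub).trans ?_
  rw [volume_gbox, Real.volume_Icc]
  have : c 1 + R - (c 1 - R) = 2 * R := by ring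
  rw [this, pow_succ]
  exact le_of_eq (by ring)

/-- The mass of a box inside the small cube. -/
theorem unif_gbox (K : Set (EuclideanSpace ℝ (Fin (n + 2)))) (hKm : MeasurableSet K)
    (c : EuclideanSpace ℝ (Fin (n + 2))) (q : ℝ)
    (hsmall : ∀ x : EuclideanSpace ℝ (Fin (n + 2)), (∀ i, |x i - c i| ≤ q) → x ∈ K)
    (I0 I1 : Set ℝ) (h0 : I0 ⊆ Icc (c 0 - q) (c 0 + q)) (h1 : I1 ⊆ Icc (c 1 - q) (c 1 + q)) :
    unif K (gbox n c q I0 I1)
      = (volume K)⁻¹ * (volume I0 * volume I1 * ENNReal.ofReal (2 * q) ^ n) := by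
  rw [unif_apply hKm]
  have hsub : gbox n c q I0 I1 ∩ K = gbox n c q I0 I1 := by
    apply inter_eq_left.mpr
    rintro x ⟨hx0, hx1, hx⟩
    refine hsmall x fun i => ?_
    refine Fin.cases ?_ (fun j => Fin.cases ?_ (fun i => ?_) j) i
    · have := h0 hx0
      exact abs_le.mpr ⟨by linarith [this.1], by linarith [this.2]⟩
    · have := h1 hx1
      change |x 1 - c 1| ≤ q
      exact abs_le.mpr ⟨by linarith [this.1], by linarith [this.2]⟩
    · have := hx i
      exact abs_le.mpr ⟨by linarith [this.1], by linarith [this.2]⟩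
  rw [hsub, volume_gbox]

theorem unif_le_of_inter_subset' {d : ℕ} {K : Set (EuclideanSpace ℝ (Fin d))}
    (hK : MeasurableSet K) {s t : Set (EuclideanSpace ℝ (Fin d))} (h : s ∩ K ⊆ t) :
    unif K s ≤ unif K t := by
  rw [unif_apply hK, unif_apply hK]
  exact mul_le_mul_right (measure_mono (subset_inter h inter_subset_right)) _

theorem unif_eq_zero_of_disjoint {d : ℕ} {K : Set (EuclideanSpace ℝ (Fin d))}
    (hKm : MeasurableSet K) {s : Set (EuclideanSpace ℝ (Fin d))} (h : s ∩ K = ∅) :
    unif K s = 0 := by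
  rw [unif_apply hKm, h, measure_empty, mul_zero]

/-- Two probability measures on `Fin 3` which agree on `{0}` and `{2}` are equal. -/
theorem measure_fin3_ext (m m' : Measure (Fin 3)) [IsProbabilityMeasure m]
    [IsProbabilityMeasure m'] (h0 : m {0} = m' {0}) (h2 : m {2} = m' {2}) : m = m' := by
  have hsum : ∀ μ : Measure (Fin 3), μ univ = μ {0} + μ {1} + μ {2} := by
    intro μ
    have := sum_measure_singleton (μ := μ) (s := (Finset.univ : Finset (Fin 3)))
    rw [Fin.sum_univ_three] at this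
    simpa using this.symm
  have h1 : m {1} = m' {1} := by
    have e1 := hsum m
    have e2 := hsum m'
    rw [measure_univ] at e1 e2
    rw [e1, h0, h2] at e2
    have e3 : m' {0} + m {1} = m' {0} + m' {1} :=
      (ENNReal.add_left_inj (measure_ne_top _ _)).mp e2
    exact (ENNReal.add_right_inj (measure_ne_top _ _)).mp e3
  refine Measure.ext_of_singleton fun k => ?_
  fin_cases k
  · exact h0
  · exact h1
  · exact h2

/-- Mass matching: there is a straight slab configuration with the same three masses as the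
wedge configuration. -/
theorem exists_matching (K : Set (EuclideanSpace ℝ (Fin (n + 2)))) (hKm : MeasurableSet K)
    (hV0 : volume K ≠ 0) (hVt : volume K ≠ ∞)
    (c : EuclideanSpace ℝ (Fin (n + 2))) (R : ℝ) (hR : 0 < R)
    (hbig : ∀ x ∈ K, ∀ i, |x i - c i| ≤ R) (q δ : ℝ) :
    ∃ l r : ℝ, l ≤ c 0 ∧ c 0 ≤ r ∧
      Measure.map (isl l r) (unif K) = Measure.map (iw c q δ) (unif K) := by
  have : IsProbabilityMeasure (unif K) := isProbabilityMeasure_unif hKm hV0 hVt
  set ρ := unif K with hρ
  set Lc : ℝ := ((volume K)⁻¹ * ENNReal.ofReal (2 * R) ^ (n + 1)).toReal with hLc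
  have hLfin : (volume K)⁻¹ * ENNReal.ofReal (2 * R) ^ (n + 1) ≠ ∞ :=
    ENNReal.mul_ne_top (ENNReal.inv_ne_top.mpr hV0) (ENNReal.pow_ne_top ENNReal.ofReal_ne_top)
  have hslab : ∀ s s' : ℝ, s ≤ s' →
      ρ {x | s ≤ x 0 ∧ x 0 < s'} ≤ ENNReal.ofReal (Lc * (s' - s)) := by
    intro s s' hss
    have h1 : ρ {x | s ≤ x 0 ∧ x 0 < s'} ≤ ρ {x | x 0 ∈ Icc s s'} :=
      measure_mono fun x hx => ⟨hx.1, hx.2.le⟩
    refine h1.trans ((unif_slab_le K hKm c R hbig _).trans ?_)
    rw [Real.volume_Icc, ENNReal.ofReal_mul ENNReal.toReal_nonneg, ENNReal.ofReal_toReal hLfin]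
    exact le_of_eq (by ring)
  have hm0 : MeasurableSet (iw c q δ ⁻¹' {0}) := measurable_iw c q δ (measurableSet_singleton _)
  have hm2 : MeasurableSet (iw c q δ ⁻¹' {2}) := measurable_iw c q δ (measurableSet_singleton _)
  have hlt : ∀ s : ℝ, MeasurableSet {x : EuclideanSpace ℝ (Fin (n + 2)) | x 0 < s} := fun s =>
    measurableSet_lt (measurable_coord 0) measurable_const
  -- the left level
  obtain ⟨l, hl, hlm⟩ := exists_level ρ Lc ENNReal.toReal_nonneg hslab (c 0 - R) (c 0) (by linarith)
    (ρ (iw c q δ ⁻¹' {0})) (by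
      have : ρ {x | x 0 < c 0 - R} = 0 := by
        refine unif_eq_zero_of_disjoint hKm ?_
        ext x
        simp only [mem_inter_iff, mem_ofPred_eq, mem_empty_iff_false, iff_false, not_and]
        intro hx hxK
        have := abs_le.mp (hbig x hxK 0)
        linarith [this.1]
      rw [this]
      exact bot_le) (by
      refine measure_mono fun x hx => ?_
      have hx' : iw c q δ x = 0 := hx
      exact ((iw_eq_zero_iff c x q δ).mp hx').2)
  -- the right level
  have hdisj : Disjoint {x : EuclideanSpace ℝ (Fin (n + 2)) | x 0 < c 0} (iw c q δ ⁻¹' {2}) := by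
    rw [Set.disjoint_left]
    intro x hx hx2
    have hx' : iw c q δ x = 2 := hx2
    have hx3 : x 0 < c 0 := hx
    linarith [((iw_eq_two_iff c x q δ).mp hx').2]
  obtain ⟨r, hr, hrm⟩ := exists_level ρ Lc ENNReal.toReal_nonneg hslab (c 0) (c 0 + R + 1)
    (by linarith) (1 - ρ (iw c q δ ⁻¹' {2})) (by
      refine ENNReal.le_sub_of_add_le_right (measure_ne_top _ _) ?_
      rw [← measure_union hdisj hm2]
      exact prob_le_one) (by
      have : ρ {x | x 0 < c 0 + R + 1} = 1 := by
        have hc : ρ {x | x 0 < c 0 + R + 1}ᶜ = 0 := by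
          refine unif_eq_zero_of_disjoint hKm ?_
          ext x
          simp only [mem_inter_iff, mem_compl_iff, mem_ofPred_eq, mem_empty_iff_false, iff_false,
            not_and, not_lt]
          intro hx hxK
          have := abs_le.mp (hbig x hxK 0)
          linarith [this.2]
        rw [← prob_compl_eq_zero_iff (hlt _)]
        exact hc
      rw [this]
      exact tsub_le_self)
  refine ⟨l, r, hl.2, hr.1, ?_⟩
  have : IsProbabilityMeasure (Measure.map (isl l r) ρ) :=
    Measure.isProbabilityMeasure_map (measurable_isl l r).aemeasurable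
  have : IsProbabilityMeasure (Measure.map (iw c q δ) ρ) :=
    Measure.isProbabilityMeasure_map (measurable_iw c q δ).aemeasurable
  refine measure_fin3_ext _ _ ?_ ?_
  · rw [Measure.map_apply (measurable_isl l r) (measurableSet_singleton _),
      Measure.map_apply (measurable_iw c q δ) (measurableSet_singleton _), ← hlm]
    congr 1
    ext x
    simp only [mem_preimage, mem_singleton_iff, mem_ofPred_eq]
    exact isl_eq_zero_iff x l r
  · rw [Measure.map_apply (measurable_isl l r) (measurableSet_singleton _),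
      Measure.map_apply (measurable_iw c q δ) (measurableSet_singleton _)]
    have hset : isl (n := n) l r ⁻¹' {2} = {x | x 0 < r}ᶜ := by
      ext x
      simp only [mem_preimage, mem_singleton_iff, mem_compl_iff, mem_ofPred_eq, not_lt]
      exact isl_eq_two_iff x l r (hl.2.trans hr.1)
    rw [hset, prob_compl_eq_one_sub (hlt r), hrm]
    exact ENNReal.sub_sub_cancel ENNReal.one_ne_top prob_le_one

end Vale.Agent.P074
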