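import Vale.Agent.P074.General.Unique

open MeasureTheory Set
open scoped ENNReal NNReal

namespace Vale.Agent.P074

theorem unif_eq_cond {d : ℕ} (K : Set (EuclideanSpace ℝ (Fin d))) :
    unif K = ProbabilityTheory.cond volume K := rfl

theorem ofReal_norm_sq {d : ℕ} (x : EuclideanSpace ℝ (Fin d)) :
    ENNReal.ofReal (‖x‖ ^ 2) = ‖x‖ₑ ^ 2 := by
  rw [ENNReal.ofReal_pow (norm_nonneg _), ofReal_norm]

theorem mapCost_eq {d : ℕ} (ρ : Measure (EuclideanSpace ℝ (Fin d)))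
    (T : EuclideanSpace ℝ (Fin d) → EuclideanSpace ℝ (Fin d)) :
    mapCost ρ T = ∫⁻ x, ‖x - T x‖ₑ ^ 2 ∂ρ := by
  unfold mapCost
  simp only [ofReal_norm_sq]

theorem L2dist_eq_eLpNorm {d : ℕ} (ρ : Measure (EuclideanSpace ℝ (Fin d)))
    (T S : EuclideanSpace ℝ (Fin d) → EuclideanSpace ℝ (Fin d)) :
    L2dist ρ T S = eLpNorm (fun x => T x - S x) 2 ρ := by
  unfold L2dist
  rw [eLpNorm_eq_lintegral_rpow_enorm_toReal (by norm_num) (by norm_num)]
  simp only [ofReal_norm_sq, ENNReal.toReal_ofNat, ENNReal.rpow_ofNat]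

theorem isOTMap_iff {d : ℕ} (ρ μ : Measure (EuclideanSpace ℝ (Fin d)))
    (T : EuclideanSpace ℝ (Fin d) → EuclideanSpace ℝ (Fin d)) :
    IsOTMap ρ μ T ↔ (Measurable T ∧ Measure.map T ρ = μ ∧
      ∀ T' : EuclideanSpace ℝ (Fin d) → EuclideanSpace ℝ (Fin d), Measurable T' →
        Measure.map T' ρ = μ → ∫⁻ x, ‖x - T x‖ₑ ^ 2 ∂ρ ≤ ∫⁻ x, ‖x - T' x‖ₑ ^ 2 ∂ρ) := by
  unfold IsOTMap
  simp only [mapCost_eq]

/-- A coupling whose cost is below any bound strictly above `W₂²`. -/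
theorem exists_coupling_lt {d : ℕ} (μ ν : Measure (EuclideanSpace ℝ (Fin d))) (B B' : ℝ≥0∞)
    (h : W2 μ ν ≤ B ^ (1 / 2 : ℝ)) (hB : B < B') :
    ∃ π : Measure (EuclideanSpace ℝ (Fin d) × EuclideanSpace ℝ (Fin d)),
      Measure.map Prod.fst π = μ ∧ Measure.map Prod.snd π = ν ∧
      ∫⁻ p, ‖p.1 - p.2‖ₑ ^ 2 ∂π < B' := by
  unfold W2 at h
  rw [ENNReal.rpow_le_rpow_iff (by norm_num)] at h
  obtain ⟨π, hπ⟩ := iInf_lt_iff.mp (lt_of_le_of_lt h hB)
  refine ⟨π.1, π.2.1, π.2.2, ?_⟩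
  simpa only [ofReal_norm_sq] using hπ

variable {n : ℕ}

/-- The strong general statement written with Mathlib notions only. -/
theorem general_bad_pair_plain (K : Set (EuclideanSpace ℝ (Fin (n + 2)))) (hK : IsCompact K)
    (hint : (interior K).Nonempty) (Y : Set (EuclideanSpace ℝ (Fin (n + 2))))
    (hYm : MeasurableSet Y) (hYint : (interior Y).Nonempty) (α : ℝ) (hα : 1 / 3 < α) (C : ℝ≥0) :
    ∃ (μ ν : Measure (EuclideanSpace ℝ (Fin (n + 2))))
      (π : Measure (EuclideanSpace ℝ (Fin (n + 2)) × EuclideanSpace ℝ (Fin (n + 2)))),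
      IsProbabilityMeasure μ ∧ IsProbabilityMeasure ν ∧ μ Yᶜ = 0 ∧ ν Yᶜ = 0 ∧
      Measure.map Prod.fst π = μ ∧ Measure.map Prod.snd π = ν ∧
      (∃ T, IsOTMap (unif K) μ T) ∧ (∃ S, IsOTMap (unif K) ν S) ∧
      ∀ T S : EuclideanSpace ℝ (Fin (n + 2)) → EuclideanSpace ℝ (Fin (n + 2)),
        IsOTMap (unif K) μ T → IsOTMap (unif K) ν S →
        (C : ℝ≥0∞) * ((∫⁻ p, ‖p.1 - p.2‖ₑ ^ 2 ∂π) ^ (1 / 2 : ℝ)) ^ α < L2dist (unif K) T S := by
  have hKm : MeasurableSet K := hK.measurableSet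
  have hV0 : volume K ≠ 0 :=
    ((isOpen_interior.measure_pos volume hint).trans_le (measure_mono interior_subset)).ne'
  have hVt : volume K ≠ ∞ := hK.measure_lt_top.ne
  have : IsProbabilityMeasure (unif K) := isProbabilityMeasure_unif hKm hV0 hVt
  obtain ⟨ys, hys⟩ := hYint
  rw [mem_interior_iff_mem_nhds, Metric.mem_nhds_iff] at hys
  obtain ⟨ε, hε, hball⟩ := hys
  set lam : ℝ := ε / 2 with hlam'
  have hlam : 0 < lam := by positivity
  have hball' : Metric.closedBall ys lam ⊆ Y :=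
    (Metric.closedBall_subset_ball (by rw [hlam']; linarith)).trans hball
  obtain ⟨c, q, a, b, ha, hb, hest⟩ := general_estimates K hK hint ys lam hlam
  obtain ⟨δ, h0, h1, hδ⟩ := exists_delta_gen a (2 * b) ha (by positivity) α hα C
  obtain ⟨l, r, hlr, hW, hL⟩ := hest δ h0 h1
  have hδ1 : |δ| ≤ 1 := by rw [abs_of_pos h0]; linarith
  have hm0 : Measurable fun x : EuclideanSpace ℝ (Fin (n + 2)) => site ys lam 0 (isl l r x) :=
    (measurable_of_finite (site ys lam 0)).comp (measurable_isl l r)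
  have hm1 : Measurable fun x : EuclideanSpace ℝ (Fin (n + 2)) => site ys lam δ (iw c q δ x) :=
    (measurable_of_finite (site ys lam δ)).comp (measurable_iw c q δ)
  have hlt : ENNReal.ofReal (b * δ ^ 3) < ENNReal.ofReal (2 * b * δ ^ 3) := by
    rw [ENNReal.ofReal_lt_ofReal_iff (by positivity)]
    have : 0 < b * δ ^ 3 := by positivity
    linarith
  obtain ⟨π, hπ1, hπ2, hπ3⟩ := exists_coupling_lt _ _ _ _ hW hlt
  refine ⟨_, _, π, Measure.isProbabilityMeasure_map hm0.aemeasurable,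
    Measure.isProbabilityMeasure_map hm1.aemeasurable,
    map_site_compl_eq_zero _ ys lam 0 hlam.le (by simp) _ (measurable_isl l r) Y hYm hball',
    map_site_compl_eq_zero _ ys lam δ hlam.le hδ1 _ (measurable_iw c q δ) Y hYm hball',
    hπ1, hπ2,
    ⟨_, slab_isOTMap _ ys lam hlam l r hlr⟩, ⟨_, wedge_isOTMap _ ys c lam hlam q δ⟩, ?_⟩
  intro T S hT hS
  have eT := ae_eq_site_unif hKm hK.isBounded ys lam 0 hlam (by simp) (cs l r lam) (isl l r)
    (measurable_isl l r) (fun x j => slab_opt ys l r lam hlam hlr x j) T hT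
  have eS := ae_eq_site_unif hKm hK.isBounded ys lam δ hlam hδ1 (cw c q δ lam) (iw c q δ)
    (measurable_iw c q δ) (fun x j => wedge_opt ys c q δ lam hlam x j) S hS
  rw [L2dist_congr eT eS]
  have hα0 : 0 ≤ α := by linarith
  calc (C : ℝ≥0∞) * ((∫⁻ p, ‖p.1 - p.2‖ₑ ^ 2 ∂π) ^ (1 / 2 : ℝ)) ^ α
      ≤ (C : ℝ≥0∞) * (ENNReal.ofReal (2 * b * δ ^ 3) ^ (1 / 2 : ℝ)) ^ α :=
        mul_le_mul_right (ENNReal.rpow_le_rpow
          (ENNReal.rpow_le_rpow hπ3.le (by norm_num)) hα0) _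
    _ < ENNReal.ofReal (a * δ) ^ (1 / 2 : ℝ) := hδ
    _ ≤ _ := hL

end Vale.Agent.P074
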