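import Vale.Agent.P074.General.Main
import Vale.Agent.P074.Unique

open MeasureTheory Set
open scoped ENNReal NNReal

namespace Vale.Agent.P074

/-- Uniqueness (up to null sets) of the optimal map onto a finitely supported target, when the
source does not charge the hyperplanes separating the cells. -/
theorem ae_eq_of_index {d : ℕ} {ι : Type*} [Fintype ι] [MeasurableSpace ι]
    [MeasurableSingletonClass ι]
    (ρ : Measure (EuclideanSpace ℝ (Fin d))) [IsFiniteMeasure ρ]
    (a : ι → EuclideanSpace ℝ (Fin d)) (c : ι → ℝ) (ha : Function.Injective a)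
    (i : EuclideanSpace ℝ (Fin d) → ι) (hi : Measurable i)
    (h : ∀ x j, inner ℝ x (a j) - c j ≤ inner ℝ x (a (i x)) - c (i x))
    (hnull : ∀ j k, j ≠ k → ρ {x | inner ℝ x (a j - a k) = c j - c k} = 0)
    (hfin : mapCost ρ (fun x => a (i x)) ≠ ∞) :
    ∀ S : EuclideanSpace ℝ (Fin d) → EuclideanSpace ℝ (Fin d),
      IsOTMap ρ (Measure.map (fun x => a (i x)) ρ) S → S =ᵐ[ρ] fun x => a (i x) := by
  have hmeas : Measurable fun x => a (i x) := (measurable_of_finite a).comp hi
  refine ae_eq_of_certificate ρ _ hmeas (Set.range a) (Set.finite_range a).measurableSet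
    (fun x => ⟨i x, rfl⟩) (lamOf a c) (measurable_lamOf a c) _ (abs_lamOf_le a c) ?_ ?_ hfin
  · rintro x _ ⟨j, rfl⟩
    exact (certificate_of_index a c ha x (i x) j).mpr (h x j)
  · have hae : ∀ᵐ x ∂ρ, ∀ j k, j ≠ k → inner ℝ x (a j - a k) ≠ c j - c k := by
      rw [ae_all_iff]
      intro j
      rw [ae_all_iff]
      intro k
      by_cases hjk : j = k
      · exact Filter.Eventually.of_forall fun x hne => absurd hjk hne
      · have := measure_eq_zero_iff_ae_notMem.mp (hnull j k hjk)
        filter_upwards [this] with x hx _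
        exact hx
    filter_upwards [hae] with x hx
    rintro _ ⟨j, rfl⟩ hne
    have hj : j ≠ i x := fun hji => hne (by rw [hji])
    refine (certificate_of_index_lt a c ha x (i x) j).mpr (lt_of_le_of_ne (h x j) ?_)
    intro heq
    refine hx j (i x) hj ?_
    rw [inner_sub_right]
    linarith

variable {n : ℕ}

theorem norm_site_le (ys : EuclideanSpace ℝ (Fin (n + 2))) (lam s : ℝ) (hlam : 0 ≤ lam)
    (hs : |s| ≤ 1) (k : Fin 3) : ‖site ys lam s k‖ ≤ ‖ys‖ + lam := by
  have h1 := norm_site_sub_le ys lam s hlam hs k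
  have h2 : ‖site ys lam s k‖ ≤ ‖site ys lam s k - ys‖ + ‖ys‖ := by
    have := norm_add_le (site ys lam s k - ys) ys
    rwa [sub_add_cancel] at this
  linarith

/-- Uniqueness of the optimal map for three-site targets when the source is uniform on a bounded
measurable set. -/
theorem ae_eq_site_unif {K : Set (EuclideanSpace ℝ (Fin (n + 2)))} (hK : MeasurableSet K)
    [IsFiniteMeasure (unif K)] (hb : Bornology.IsBounded K)
    (ys : EuclideanSpace ℝ (Fin (n + 2))) (lam s : ℝ) (hlam : 0 < lam) (hs : |s| ≤ 1)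
    (c : Fin 3 → ℝ) (i : EuclideanSpace ℝ (Fin (n + 2)) → Fin 3) (hi : Measurable i)
    (h : ∀ x j, inner ℝ x (site ys lam s j) - c j
      ≤ inner ℝ x (site ys lam s (i x)) - c (i x)) :
    ∀ S : EuclideanSpace ℝ (Fin (n + 2)) → EuclideanSpace ℝ (Fin (n + 2)),
      IsOTMap (unif K) (Measure.map (fun x => site ys lam s (i x)) (unif K)) S →
        S =ᵐ[unif K] fun x => site ys lam s (i x) := by
  have hinj := site_injective ys lam s hlam
  refine ae_eq_of_index (unif K) (site ys lam s) c hinj i hi h ?_ ?_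
  · intro j k hjk
    exact unif_hyperplane_null K _ (sub_ne_zero.mpr fun h => hjk (hinj h)) _
  · exact mapCost_unif_ne_top hK hb _ (‖ys‖ + lam) fun x => norm_site_le ys lam s hlam.le hs _

/-- Strong form: for every compact source body `K` with nonempty interior, every target region `Y`
with nonempty interior, every `α > 1/3` and every constant `C`, there are targets `μ, ν` on `Y`
which possess optimal maps and for which every pair of optimal maps violates the estimate. -/
theorem general_bad_pair_strong (K : Set (EuclideanSpace ℝ (Fin (n + 2)))) (hK : IsCompact K)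
    (hint : (interior K).Nonempty) (Y : Set (EuclideanSpace ℝ (Fin (n + 2))))
    (hYm : MeasurableSet Y) (hYint : (interior Y).Nonempty) (α : ℝ) (hα : 1 / 3 < α) (C : ℝ≥0) :
    ∃ μ ν : Measure (EuclideanSpace ℝ (Fin (n + 2))),
      IsProbabilityMeasure μ ∧ IsProbabilityMeasure ν ∧ μ Yᶜ = 0 ∧ ν Yᶜ = 0 ∧
      (∃ T, IsOTMap (unif K) μ T) ∧ (∃ S, IsOTMap (unif K) ν S) ∧
      ∀ T S : EuclideanSpace ℝ (Fin (n + 2)) → EuclideanSpace ℝ (Fin (n + 2)),
        IsOTMap (unif K) μ T → IsOTMap (unif K) ν S →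
        (C : ℝ≥0∞) * W2 μ ν ^ α < L2dist (unif K) T S := by
  have hKm : MeasurableSet K := hK.measurableSet
  have hV0 : volume K ≠ 0 :=
    ((isOpen_interior.measure_pos volume hint).trans_le (measure_mono interior_subset)).ne'
  have hVt : volume K ≠ ∞ := hK.measure_lt_top.ne
  have : IsProbabilityMeasure (unif K) := isProbabilityMeasure_unif hKm hV0 hVt
  obtain ⟨ys, hys⟩ := hYint
  rw [mem_interior_iff_mem_nhds, Metric.mem_nhds_iff] at hys
  obtain ⟨ε, hε, hball⟩ := hys
  set lam : ℝ := ε / 2 with hlam'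
  have hlam : 0 < lam := by positivity
  have hball' : Metric.closedBall ys lam ⊆ Y :=
    (Metric.closedBall_subset_ball (by rw [hlam']; linarith)).trans hball
  obtain ⟨c, q, a, b, ha, hb, hest⟩ := general_estimates K hK hint ys lam hlam
  obtain ⟨δ, h0, h1, hδ⟩ := exists_delta_gen a b ha hb α hα C
  obtain ⟨l, r, hlr, hW, hL⟩ := hest δ h0 h1
  have hδ1 : |δ| ≤ 1 := by rw [abs_of_pos h0]; linarith
  have hm0 : Measurable fun x : EuclideanSpace ℝ (Fin (n + 2)) => site ys lam 0 (isl l r x) :=
    (measurable_of_finite (site ys lam 0)).comp (measurable_isl l r)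
  have hm1 : Measurable fun x : EuclideanSpace ℝ (Fin (n + 2)) => site ys lam δ (iw c q δ x) :=
    (measurable_of_finite (site ys lam δ)).comp (measurable_iw c q δ)
  refine ⟨_, _, Measure.isProbabilityMeasure_map hm0.aemeasurable,
    Measure.isProbabilityMeasure_map hm1.aemeasurable,
    map_site_compl_eq_zero _ ys lam 0 hlam.le (by simp) _ (measurable_isl l r) Y hYm hball',
    map_site_compl_eq_zero _ ys lam δ hlam.le hδ1 _ (measurable_iw c q δ) Y hYm hball',
    ⟨_, slab_isOTMap _ ys lam hlam l r hlr⟩, ⟨_, wedge_isOTMap _ ys c lam hlam q δ⟩, ?_⟩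
  intro T S hT hS
  have eT := ae_eq_site_unif hKm hK.isBounded ys lam 0 hlam (by simp) (cs l r lam) (isl l r)
    (measurable_isl l r) (fun x j => slab_opt ys l r lam hlam hlr x j) T hT
  have eS := ae_eq_site_unif hKm hK.isBounded ys lam δ hlam hδ1 (cw c q δ lam) (iw c q δ)
    (measurable_iw c q δ) (fun x j => wedge_opt ys c q δ lam hlam x j) S hS
  rw [L2dist_congr eT eS]
  have hα0 : 0 ≤ α := by linarith
  calc (C : ℝ≥0∞) * W2 _ _ ^ α
      ≤ (C : ℝ≥0∞) * (ENNReal.ofReal (b * δ ^ 3) ^ (1 / 2 : ℝ)) ^ α :=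
        mul_le_mul_right (ENNReal.rpow_le_rpow hW hα0) _
    _ < ENNReal.ofReal (a * δ) ^ (1 / 2 : ℝ) := hδ
    _ ≤ _ := hL

end Vale.Agent.P074
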