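import Vale.Agent.P074.General.Index
import Vale.Agent.P074.General.Level

open MeasureTheory Set
open scoped ENNReal NNReal

namespace Vale.Agent.P074

variable {n : ℕ}

/-- The three sites `y - λ e₀`, `y + λ s e₁`, `y + λ e₀`. -/
noncomputable def site (ys : EuclideanSpace ℝ (Fin (n + 2))) (lam s : ℝ) :
    Fin 3 → EuclideanSpace ℝ (Fin (n + 2)) :=
  ![ys - EuclideanSpace.single 0 lam, ys + EuclideanSpace.single 1 (lam * s),
    ys + EuclideanSpace.single 0 lam]

/-- The cell index of the wedge configuration. -/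
noncomputable def iw (c : EuclideanSpace ℝ (Fin (n + 2))) (q δ : ℝ) :
    EuclideanSpace ℝ (Fin (n + 2)) → Fin 3 := fun x =>
  if |x 0 - c 0| ≤ δ * (x 1 - c 1 + q) then 1 else if x 0 < c 0 then 0 else 2

/-- The cell index of the straight slab configuration. -/
noncomputable def isl (l r : ℝ) : EuclideanSpace ℝ (Fin (n + 2)) → Fin 3 := fun x =>
  if x 0 < l then 0 else if x 0 < r then 1 else 2

theorem iw_eq_zero_iff (c x : EuclideanSpace ℝ (Fin (n + 2))) (q δ : ℝ) :
    iw c q δ x = 0 ↔ ¬ (|x 0 - c 0| ≤ δ * (x 1 - c 1 + q)) ∧ x 0 < c 0 := by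
  unfold iw
  by_cases h1 : |x 0 - c 0| ≤ δ * (x 1 - c 1 + q)
  · simp [h1]
  · by_cases h2 : x 0 < c 0 <;> simp [h1, h2]

theorem iw_eq_one_iff (c x : EuclideanSpace ℝ (Fin (n + 2))) (q δ : ℝ) :
    iw c q δ x = 1 ↔ |x 0 - c 0| ≤ δ * (x 1 - c 1 + q) := by
  unfold iw
  by_cases h1 : |x 0 - c 0| ≤ δ * (x 1 - c 1 + q)
  · simp [h1]
  · by_cases h2 : x 0 < c 0 <;> simp [h1, h2]

theorem iw_eq_two_iff (c x : EuclideanSpace ℝ (Fin (n + 2))) (q δ : ℝ) :
    iw c q δ x = 2 ↔ ¬ (|x 0 - c 0| ≤ δ * (x 1 - c 1 + q)) ∧ c 0 ≤ x 0 := by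
  unfold iw
  by_cases h1 : |x 0 - c 0| ≤ δ * (x 1 - c 1 + q)
  · simp [h1]
  · by_cases h2 : x 0 < c 0
    · simp [h1, h2]
    · simp [h1, h2, not_lt.mp h2]

theorem isl_eq_zero_iff (x : EuclideanSpace ℝ (Fin (n + 2))) (l r : ℝ) :
    isl l r x = 0 ↔ x 0 < l := by
  unfold isl
  by_cases h1 : x 0 < l
  · simp [h1]
  · by_cases h2 : x 0 < r <;> simp [h1, h2]

theorem isl_eq_one_iff (x : EuclideanSpace ℝ (Fin (n + 2))) (l r : ℝ) :
    isl l r x = 1 ↔ l ≤ x 0 ∧ x 0 < r := by
  unfold isl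
  by_cases h1 : x 0 < l
  · simp [h1]
  · by_cases h2 : x 0 < r
    · simp [h1, h2, not_lt.mp h1]
    · simp [h1, h2]

theorem isl_eq_two_iff (x : EuclideanSpace ℝ (Fin (n + 2))) (l r : ℝ) (hlr : l ≤ r) :
    isl l r x = 2 ↔ r ≤ x 0 := by
  unfold isl
  by_cases h1 : x 0 < l
  · simp [h1]
    linarith
  · by_cases h2 : x 0 < r
    · simp [h1, h2]
    · simp [h1, h2, not_lt.mp h2]

theorem measurable_iw (c : EuclideanSpace ℝ (Fin (n + 2))) (q δ : ℝ) : Measurable (iw c q δ) := by
  refine Measurable.ite ?_ measurable_const (Measurable.ite ?_ measurable_const measurable_const)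
  · refine measurableSet_le ?_ ?_
    · exact ((measurable_coord 0).sub_const _).abs
    · exact (((measurable_coord 1).sub_const _).add_const _).const_mul _
  · exact measurableSet_lt (measurable_coord 0) measurable_const

theorem measurable_isl (l r : ℝ) : Measurable (isl (n := n) l r) := by
  refine Measurable.ite ?_ measurable_const (Measurable.ite ?_ measurable_const measurable_const)
  · exact measurableSet_lt (measurable_coord 0) measurable_const
  · exact measurableSet_lt (measurable_coord 0) measurable_const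

theorem site_zero_coord (ys : EuclideanSpace ℝ (Fin (n + 2))) (lam s : ℝ) (k : Fin 3) :
    site ys lam s k 0 = ys 0 + lam * (![-1, 0, 1] : Fin 3 → ℝ) k := by
  fin_cases k <;> simp [site]
  ring

theorem site_injective (ys : EuclideanSpace ℝ (Fin (n + 2))) (lam s : ℝ) (hlam : 0 < lam) :
    Function.Injective (site ys lam s) := by
  intro j k hjk
  have h := congrArg (fun z : EuclideanSpace ℝ (Fin (n + 2)) => z 0) hjk
  simp only [site_zero_coord] at h
  have h2 : (![-1, 0, 1] : Fin 3 → ℝ) j = (![-1, 0, 1] : Fin 3 → ℝ) k := by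
    have := add_left_cancel h
    exact mul_left_cancel₀ hlam.ne' this
  fin_cases j <;> fin_cases k <;> simp at h2 ⊢ <;> norm_num at h2

theorem inner_site (ys x : EuclideanSpace ℝ (Fin (n + 2))) (lam s : ℝ) (k : Fin 3) :
    inner ℝ x (site ys lam s k)
      = inner ℝ x ys + lam * (![-(x 0), s * x 1, x 0] : Fin 3 → ℝ) k := by
  fin_cases k <;>
    simp [site, inner_add_right, inner_sub_right, EuclideanSpace.inner_single_right] <;> ring

/-- The weights of the wedge configuration. -/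
noncomputable def cw (c : EuclideanSpace ℝ (Fin (n + 2))) (q δ lam : ℝ) : Fin 3 → ℝ :=
  ![-(lam * c 0), lam * (δ * (c 1 - q)), lam * c 0]

/-- The weights of the straight slab configuration. -/
noncomputable def cs (l r lam : ℝ) : Fin 3 → ℝ := ![-(lam * l), 0, lam * r]

theorem wedge_opt (ys c : EuclideanSpace ℝ (Fin (n + 2))) (q δ lam : ℝ) (hlam : 0 < lam)
    (x : EuclideanSpace ℝ (Fin (n + 2))) (j : Fin 3) :
    inner ℝ x (site ys lam δ j) - cw c q δ lam j
      ≤ inner ℝ x (site ys lam δ (iw c q δ x)) - cw c q δ lam (iw c q δ x) := by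
  rw [inner_site, inner_site]
  have key : (![-(x 0), δ * x 1, x 0] : Fin 3 → ℝ) j * lam - cw c q δ lam j
      ≤ (![-(x 0), δ * x 1, x 0] : Fin 3 → ℝ) (iw c q δ x) * lam - cw c q δ lam (iw c q δ x) := by
    unfold iw
    split_ifs with h1 h2
    · have ha := abs_le.mp h1
      fin_cases j <;> simp [cw] <;> nlinarith [ha.1, ha.2]
    · rw [not_le] at h1
      have h3 : |x 0 - c 0| = -(x 0 - c 0) := abs_of_neg (by linarith)
      rw [h3] at h1
      fin_cases j <;> simp [cw] <;> nlinarith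
    · rw [not_le] at h1
      rw [not_lt] at h2
      have h3 : |x 0 - c 0| = x 0 - c 0 := abs_of_nonneg (by linarith)
      rw [h3] at h1
      fin_cases j <;> simp [cw] <;> nlinarith
  linarith

theorem slab_opt (ys : EuclideanSpace ℝ (Fin (n + 2))) (l r lam : ℝ) (hlam : 0 < lam)
    (hlr : l ≤ r) (x : EuclideanSpace ℝ (Fin (n + 2))) (j : Fin 3) :
    inner ℝ x (site ys lam 0 j) - cs l r lam j
      ≤ inner ℝ x (site ys lam 0 (isl l r x)) - cs l r lam (isl l r x) := by
  rw [inner_site, inner_site]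
  have key : (![-(x 0), 0 * x 1, x 0] : Fin 3 → ℝ) j * lam - cs l r lam j
      ≤ (![-(x 0), 0 * x 1, x 0] : Fin 3 → ℝ) (isl l r x) * lam - cs l r lam (isl l r x) := by
    unfold isl
    split_ifs with h1 h2
    · fin_cases j <;> simp [cs] <;> nlinarith
    · rw [not_lt] at h1
      fin_cases j <;> simp [cs] <;> nlinarith
    · rw [not_lt] at h1 h2
      fin_cases j <;> simp [cs] <;> nlinarith
  linarith

end Vale.Agent.P074
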